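import Vale.Agent.P126.Geo

namespace Vale.Agent.Results.P126.Disproof

open Vale.Agent.P126
open scoped Pointwise

theorem result :
    (∀ a b : ℝ, 1 ≤ a → 1 ≤ b →
      ∃ n : ℕ, 1 ≤ n ∧ ∃ K L : Set (EuclideanSpace ℝ (Fin n)), IsSymmBody K ∧ IsSymmBody L ∧
        (coverSizes K L).Nonempty ∧ (coverSizes (polar L) (a⁻¹ • polar K)).Nonempty ∧
        b * Real.log (coveringNumber (polar L) (a⁻¹ • polar K)) <
          Real.log (coveringNumber K L)) ∧
    ¬ ∃ a b : ℝ, 1 ≤ a ∧ 1 ≤ b ∧ ∀ n : ℕ, 1 ≤ n →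
      ∀ K L : Set (EuclideanSpace ℝ (Fin n)), IsSymmBody K → IsSymmBody L →
        1 / b * Real.log (coveringNumber (polar L) (a • polar K)) ≤
            Real.log (coveringNumber K L) ∧
          Real.log (coveringNumber K L) ≤
            b * Real.log (coveringNumber (polar L) (a⁻¹ • polar K)) := by
  refine ⟨counterexample, ?_⟩
  rintro ⟨a, b, ha, hb, h⟩
  obtain ⟨n, hn, K, L, hK, hL, -, -, hlt⟩ := counterexample a b ha hb
  exact absurd (h n hn K L hK hL).2 (not_le.2 hlt)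

end Vale.Agent.Results.P126.Disproof
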